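import Vale.Agent.P062.NEAR.C0
import Vale.Agent.P062.NEAR.C1
import Vale.Agent.P062.NEAR.C2
import Vale.Agent.P062.NEAR.C3
import Vale.Agent.P062.NEAR.C4
import Vale.Agent.P062.NEAR.C5
import Vale.Agent.P062.NEAR.C6
import Vale.Agent.P062.NEAR.C7
import Vale.Agent.P062.NEAR.C8
import Vale.Agent.P062.Symm

namespace Vale.Agent.P062.NEAR

/-- The zones of the certificates. -/
def zs : List ℕ := [
    0x2e0003e8003f8007fe003fc00fff007ff00fff00ffc003fc003fc000e0000a00000000000000000,
    0x20000e0000f8001ff007ff007ff007ff807ff007ff003fe001ff000fc000b8000000000000000000000,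
    0x14000dc000fc003ff002ff00fff00ffe00ffe01ffe00ffe01ffe003f0003f0002a00000000000000000,
    0x2800038001f8003fc00fff00fffc0eff80fffc1fff81fff81fff81fff007fe003fc003f80010800000000000,
    0x48003fe003fe01ffe00ffe01fff803ff01fff80ffe01ffe007fc003f0002e0000200000000000000000,
    0xc000fc001fc003ff001ff00fff80fffc0fffc0fffc07ffc03ffc03ff8007d000400000000000000000,
    0xc001fc003fc00fff00fff01dff80fffc1fffc0fffc0fffc07ffc03ff8007d000500000000000000000,
    0x50002fc003fc00ffe007ff007ff007ff801ffc0fffc0fffc0fffc03ffc01ff801fd001400000000000000000,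
    0xf8000f8001ff007ff807ffc0fffc0effc0fffc3fffc1fffc3fffc1fffc0fffc0fff803ffc0000000000]

/-- The replies not settled, with the origin. -/
def hard : Finset Cell := {(-1, -1), (-1, 0), (-1, 1), (0, -1), (0, 0), (0, 1), (1, -1), (1, 0), (1, 1)}

theorem zs_good : ∀ z ∈ zs, Good 26 (2 ^ 210) z ∧ z < 2 ^ 400 := by
  have h210 : (0x40000000000000000000000000000000000000000000000000000 : ℕ) = 2 ^ 210 := by decide +kernel
  intro z hz
  simp only [zs, List.mem_cons, List.not_mem_nil, or_false] at hz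
  rcases hz with rfl | rfl | rfl | rfl | rfl | rfl | rfl | rfl | rfl
  · rw [← h210]; exact ⟨Good.mono NEAR.C0.ok_good (by norm_num), by decide +kernel⟩
  · rw [← h210]; exact ⟨Good.mono NEAR.C1.ok_good (by norm_num), by decide +kernel⟩
  · rw [← h210]; exact ⟨Good.mono NEAR.C2.ok_good (by norm_num), by decide +kernel⟩
  · rw [← h210]; exact ⟨Good.mono NEAR.C3.ok_good (by norm_num), by decide +kernel⟩
  · rw [← h210]; exact ⟨Good.mono NEAR.C4.ok_good (by norm_num), by decide +kernel⟩
  · rw [← h210]; exact ⟨Good.mono NEAR.C5.ok_good (by norm_num), by decide +kernel⟩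
  · rw [← h210]; exact ⟨Good.mono NEAR.C6.ok_good (by norm_num), by decide +kernel⟩
  · rw [← h210]; exact ⟨Good.mono NEAR.C7.ok_good (by norm_num), by decide +kernel⟩
  · rw [← h210]; exact ⟨Good.mono NEAR.C8.ok_good (by norm_num), by decide +kernel⟩

theorem cover_check : ∀ a ∈ Finset.range 20, ∀ c ∈ Finset.range 20,
    (((a : ℤ) - 10, (c : ℤ) - 10) : Cell) ∈ hard ∨
      ∃ R ∈ signedPerms, ∃ z ∈ zs, notCoded z (act R ((a : ℤ) - 10, (c : ℤ) - 10)) = true := by
  decide +kernel

theorem hard_small : ∀ c ∈ hard, c.1 ^ 2 + c.2 ^ 2 ≤ 2 := by decide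

theorem far' {b : Cell} (hb : 2 < b.1 ^ 2 + b.2 ^ 2) : MakerWinsIn 26 {(0, 0)} {b} :=
  win_of_cover (z0 := 0x2e0003e8003f8007fe003fc00fff007ff00fff00ffc003fc003fc000e0000a00000000000000000) (by simp [zs]) zs_good cover_check
    (fun h => absurd (hard_small b h) (not_le.2 hb))

end Vale.Agent.P062.NEAR
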